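import Vale.Agent.P181.Link
import Vale.Agent.P181.Six.U.P

namespace Vale.Agent.Results.P181.FoulkesSix

open Vale.Agent.P181

universe u

/-- Foulkes' conjecture for `a = 6` and all `b ≥ 6`; and, for all `a`, injectivity of the canonical
Foulkes-Howe map for `b ≥ (a-1)^2`. -/
theorem result :
    (∀ (b : ℕ), 6 ≤ b → ∀ (V : Type u) [AddCommGroup V] [Module ℂ V] [FiniteDimensional ℂ V],
      ∃ Ψ : SymmetricPower ℂ (Fin 6) (SymmetricPower ℂ (Fin b) V) →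
          SymmetricPower ℂ (Fin b) (SymmetricPower ℂ (Fin 6) V),
        IsLinearMap ℂ Ψ ∧ Function.Injective Ψ ∧
        ∀ (g : V ≃ₗ[ℂ] V) x, Ψ (glAct 6 b g x) = glAct b 6 g (Ψ x)) ∧
    (∀ (a b : ℕ), 1 ≤ a → (a - 1) ^ 2 ≤ b →
      ∀ (V : Type u) [AddCommGroup V] [Module ℂ V] [FiniteDimensional ℂ V],
      ∃ Ψ : SymmetricPower ℂ (Fin a) (SymmetricPower ℂ (Fin b) V) →
          SymmetricPower ℂ (Fin b) (SymmetricPower ℂ (Fin a) V),
        IsLinearMap ℂ Ψ ∧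
        (∀ v : Fin a → Fin b → V,
          Ψ (dprod v) = ∑ σ : Fin a → Equiv.Perm (Fin b), dprod fun j i => v i (σ i j)) ∧
        Function.Injective Ψ ∧
        ∀ (g : V ≃ₗ[ℂ] V) x, Ψ (glAct a b g x) = glAct b a g (Ψ x)) := by
  refine ⟨fun b hb V _ _ _ => ?_, fun a b _ hb V _ _ _ => ?_⟩
  · by_cases h25 : 25 ≤ b
    · obtain ⟨Ψ, -, h2, h3⟩ := foulkes_howe_of_good (Module.finBasis ℂ V) (good_of_sq 6 b h25)
      exact ⟨Ψ, Ψ.isLinear, h2, fun g x => LinearMap.congr_fun (h3 g) x⟩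
    · by_cases h6 : b = 6
      · subst h6
        exact ⟨id, LinearMap.id.isLinear, Function.injective_id, fun _ _ => rfl⟩
      · obtain ⟨Ψ, h2, h3⟩ := inj_of_mult b (K.mult_six_le (by omega) (by omega)) V
        exact ⟨Ψ, Ψ.isLinear, h2, h3⟩
  · obtain ⟨Ψ, h1, h2, h3⟩ := foulkes_howe_of_good (Module.finBasis ℂ V) (good_of_sq a b hb)
    exact ⟨Ψ, Ψ.isLinear, h1, h2, fun g x => LinearMap.congr_fun (h3 g) x⟩

end Vale.Agent.Results.P181.FoulkesSix
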