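import Vale.Agent.P181.Link

namespace Vale.Agent.Results.P181.QuadBound

open Vale.Agent.P181

/-- For `b ≥ (a-1)^2` the canonical Foulkes-Howe map `Sym^a (Sym^b V) → Sym^b (Sym^a V)` is
injective (and `GL(V)`-equivariant), for every finite-dimensional complex vector space `V`. -/
theorem result (a b : ℕ) (ha : 1 ≤ a) (hb : (a - 1) ^ 2 ≤ b)
    (V : Type*) [AddCommGroup V] [Module ℂ V] [FiniteDimensional ℂ V] :
    ∃ Ψ : SymmetricPower ℂ (Fin a) (SymmetricPower ℂ (Fin b) V) →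
        SymmetricPower ℂ (Fin b) (SymmetricPower ℂ (Fin a) V),
      IsLinearMap ℂ Ψ ∧
      (∀ v : Fin a → Fin b → V,
        Ψ (dprod v) = ∑ σ : Fin a → Equiv.Perm (Fin b), dprod fun j i => v i (σ i j)) ∧
      Function.Injective Ψ ∧
      ∀ (g : V ≃ₗ[ℂ] V) x, Ψ (glAct a b g x) = glAct b a g (Ψ x) := by
  have _ := ha
  obtain ⟨Ψ, h1, h2, h3⟩ := foulkes_howe_of_good (Module.finBasis ℂ V) (good_of_sq a b hb)
  exact ⟨Ψ, Ψ.isLinear, h1, h2, fun g x => LinearMap.congr_fun (h3 g) x⟩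

end Vale.Agent.Results.P181.QuadBound
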